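import Vale.Agent.P371.Brouwer

/-! P216C HairA (TASK, helper names start with haira_).  Copy the proof of `key` in `brouwer_no_retraction` (P371 Brouwer) with `h` in
place of `r x - x` and radius 1.  The image of `ball 0 1` under `x ↦ x + t • h x` is `ball 0 √(1 + t ^ 2)`, since
`‖x + t • h x‖ ^ 2 = ‖x‖ ^ 2 + t ^ 2 * ‖h x‖ ^ 2` (`norm_add_sq_real`); volume by `Measure.addHaar_ball_of_pos` (or `addHaar_real_ball`),
`finrank_euclideanSpace_fin`. -/

open MeasureTheory Metric Set
open scoped RealInnerProductSpace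

namespace Vale.Agent.P216

theorem haira_norm_sq {d : ℕ} {h : EuclideanSpace ℝ (Fin d) → EuclideanSpace ℝ (Fin d)}
    (h0 : ∀ x, ⟪h x, x⟫ = 0) (t : ℝ) (x : EuclideanSpace ℝ (Fin d)) :
    ‖x + t • h x‖ ^ 2 = ‖x‖ ^ 2 + t ^ 2 * ‖h x‖ ^ 2 := by
  rw [norm_add_sq_real, real_inner_smul_right, real_inner_comm, h0, norm_smul, mul_pow,
    Real.norm_eq_abs, sq_abs]
  ring

theorem haira_vol (d : ℕ) {r : ℝ} (hr : 0 < r) :
    volume.real (ball (0 : EuclideanSpace ℝ (Fin d)) r) =
      r ^ d * volume.real (ball (0 : EuclideanSpace ℝ (Fin d)) 1) := by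
  rw [measureReal_def, measureReal_def, Measure.addHaar_ball_of_pos volume _ hr,
    finrank_euclideanSpace_fin, ENNReal.toReal_mul, ENNReal.toReal_ofReal (by positivity)]

theorem vol_key {d : ℕ} {h : EuclideanSpace ℝ (Fin d) → EuclideanSpace ℝ (Fin d)}
    (hh : ContDiff ℝ 1 h) (h0 : ∀ x, ⟪h x, x⟫ = 0) (h1 : ∀ x, ‖h x‖ ≤ 1)
    (h2 : ∀ x, ‖x‖ = 1 → ‖h x‖ = 1) : ∃ t0 > 0, ∀ t ∈ Icc (0 : ℝ) t0,
      ∫ x in ball (0 : EuclideanSpace ℝ (Fin d)) 1, (1 + t • fderiv ℝ h x).det =
        √(1 + t ^ 2) ^ d * volume.real (ball (0 : EuclideanSpace ℝ (Fin d)) 1) := by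
  have hd : Differentiable ℝ h := hh.differentiable (by simp)
  have hc : Continuous (fderiv ℝ h) := hh.continuous_fderiv (by simp)
  obtain ⟨K, hK⟩ :=
    (isCompact_closedBall (0 : EuclideanSpace ℝ (Fin d)) 1).exists_bound_of_continuousOn
      hc.continuousOn
  have hK0 : 0 ≤ K := (norm_nonneg _).trans (hK 0 (mem_closedBall_self zero_le_one))
  obtain ⟨δ, hδ, hdet⟩ : ∃ δ > 0, ∀ M : EuclideanSpace ℝ (Fin d) →L[ℝ] EuclideanSpace ℝ (Fin d),
      dist M 1 < δ → 0 < M.det := by
    have h0 : (0:ℝ) < (1 : EuclideanSpace ℝ (Fin d) →L[ℝ] EuclideanSpace ℝ (Fin d)).det := by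
      simp [ContinuousLinearMap.det]
    exact Metric.eventually_nhds_iff.1
      (ContinuousLinearMap.continuous_det.continuousAt.eventually (lt_mem_nhds h0))
  set t0 : ℝ := min δ 1 / (2 * (K + 1)) with ht0
  have hm : 0 < min δ 1 := lt_min hδ one_pos
  have ht00 : 0 < t0 := by positivity
  have ht01 : t0 * (K + 1) = min δ 1 / 2 := by rw [ht0]; field_simp
  refine ⟨t0, ht00, ?_⟩
  rintro t ⟨ht, htt⟩
  have h3 : t * (K + 1) ≤ min δ 1 / 2 := ht01 ▸ mul_le_mul_of_nonneg_right htt (by positivity)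
  have h4 := min_le_left δ 1
  have h5 := min_le_right δ 1
  have htK : t * K ≤ 1 / 2 := by nlinarith
  have hR : 0 < √(1 + t ^ 2) := Real.sqrt_pos.2 (by positivity)
  have hG : ∀ x, HasFDerivAt (fun x => x + t • h x) (1 + t • fderiv ℝ h x) x := fun x =>
    (hasFDerivAt_id x).add ((hd x).hasFDerivAt.const_smul t)
  have hA : ApproximatesLinearOn (fun x => x + t • h x)
      ((ContinuousLinearEquiv.refl ℝ (EuclideanSpace ℝ (Fin d)) : _ ≃L[ℝ] _) : _ →L[ℝ] _)
      (ball 0 1) (1 / 2 : NNReal) := by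
    intro x hx y hy
    have := (convex_closedBall (0 : EuclideanSpace ℝ (Fin d)) 1).norm_image_sub_le_of_norm_fderiv_le
      (fun x _ => hd x) hK (ball_subset_closedBall hy) (ball_subset_closedBall hx)
    have e : x + t • h x - (y + t • h y)
        - ((ContinuousLinearEquiv.refl ℝ (EuclideanSpace ℝ (Fin d)) : _ ≃L[ℝ] _) : _ →L[ℝ] _)
          (x - y) = t • (h x - h y) := by
      simp only [ContinuousLinearEquiv.coe_refl, ContinuousLinearMap.id_apply, smul_sub]
      abel
    rw [e, norm_smul, Real.norm_of_nonneg ht]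
    have h6 := mul_le_mul_of_nonneg_left this ht
    have h7 := mul_le_mul_of_nonneg_right htK (norm_nonneg (x - y))
    push_cast
    linarith
  have hN : Subsingleton (EuclideanSpace ℝ (Fin d)) ∨ (1 / 2 : NNReal) <
      ‖((ContinuousLinearEquiv.refl ℝ (EuclideanSpace ℝ (Fin d))).symm :
        EuclideanSpace ℝ (Fin d) →L[ℝ] EuclideanSpace ℝ (Fin d))‖₊⁻¹ := by
    rcases subsingleton_or_nontrivial (EuclideanSpace ℝ (Fin d)) with h | h
    · exact Or.inl h
    · right
      simp only [ContinuousLinearEquiv.refl_symm, ContinuousLinearEquiv.coe_refl,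
        ContinuousLinearMap.nnnorm_id, inv_one]
      exact one_half_lt_one
  have hinj := hA.injOn hN
  have hopen := hA.open_image (ContinuousLinearEquiv.refl ℝ _).toNonlinearRightInverse
    isOpen_ball hN
  have hGc : Continuous fun x => x + t • h x :=
    continuous_id.add (hh.continuous.const_smul t)
  have hin : (fun x => x + t • h x) '' ball 0 1 ⊆ ball 0 √(1 + t ^ 2) := by
    rintro _ ⟨x, hx, rfl⟩
    rw [mem_ball_zero_iff] at hx ⊢
    beta_reduce
    refine Real.lt_sqrt_of_sq_lt ?_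
    rw [haira_norm_sq h0]
    have a1 : ‖x‖ ^ 2 < 1 := by nlinarith [norm_nonneg x]
    have a2 : ‖h x‖ ^ 2 ≤ 1 := by nlinarith [norm_nonneg (h x), h1 x]
    have a3 := mul_le_mul_of_nonneg_left a2 (sq_nonneg t)
    linarith
  have hout : ball 0 √(1 + t ^ 2) ⊆ (fun x => x + t • h x) '' ball 0 1 := by
    refine (convex_ball _ _).isPreconnected.subset_of_closure_inter_subset hopen
      ⟨_, hin ⟨0, mem_ball_self one_pos, rfl⟩, 0, mem_ball_self one_pos, rfl⟩ ?_
    rintro y ⟨hy1, hy2⟩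
    obtain ⟨x, hx, rfl⟩ := closure_minimal (image_mono ball_subset_closedBall)
      ((isCompact_closedBall _ _).image hGc).isClosed hy1
    refine ⟨x, ?_, rfl⟩
    rw [mem_closedBall_zero_iff] at hx
    rw [mem_ball_zero_iff] at hy2 ⊢
    refine lt_of_le_of_ne hx fun hx1 => ?_
    have a1 := (Real.lt_sqrt (norm_nonneg _)).1 hy2
    beta_reduce at a1
    rw [haira_norm_sq h0, hx1, h2 x hx1] at a1
    linarith
  have h6 := integral_image_eq_integral_abs_det_fderiv_smul volume measurableSet_ball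
    (fun x _ => (hG x).hasFDerivWithinAt) hinj (fun _ => (1:ℝ))
  rw [hin.antisymm hout] at h6
  simp only [integral_const, smul_eq_mul, mul_one, MeasurableSet.univ,
    measureReal_restrict_apply, univ_inter] at h6
  rw [← haira_vol d hR, h6]
  refine setIntegral_congr_fun measurableSet_ball fun x hx => (abs_of_pos (hdet _ ?_)).symm
  rw [dist_eq_norm, add_sub_cancel_left, norm_smul, Real.norm_of_nonneg ht]
  have := mul_le_mul_of_nonneg_left (hK x (ball_subset_closedBall hx)) ht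
  nlinarith

end Vale.Agent.P216
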