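import Vale.Agent.P371.Brouwer

/-! P216C HairP (TASK, helper names start with hairp_).
poly_int: as in `brouwer_weights` (P371 Brouwer) with nodes `k = 0, .., d`, evaluated at `t` instead of `1`:
`(1 + t • M).det = ∑ k, (Lagrange.basis (range (d + 1)) v k).eval t * (1 + v k • M).det`; integrate (`integral_finsetSum`, see `hint`, `h7` there).
odd_contra: `P ^ 2 = C (c ^ 2) * (1 + X ^ 2) ^ (2 k + 1)` (`Polynomial.eq_of_infinite_eval_eq`, `Set.Icc_infinite`), so `natDegree P = 2 k + 1` is
odd and `P` has a real root (`IsRealClosed.exists_isRoot_of_odd_natDegree`, or limits at `atTop`, `atBot` and the intermediate value theorem),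
while the right side is positive. -/

open MeasureTheory Metric Set Polynomial

namespace Vale.Agent.P216

theorem hairp_weights (d : ℕ) (v : ℕ → ℝ) (hv : InjOn v (Finset.range (d + 1))) (t : ℝ)
    (M : EuclideanSpace ℝ (Fin d) →L[ℝ] EuclideanSpace ℝ (Fin d)) :
    (1 + t • M).det = ∑ k ∈ Finset.range (d + 1),
      (Lagrange.basis (Finset.range (d + 1)) v k).eval t * (1 + v k • M).det := by
  set b := (EuclideanSpace.basisFun (Fin d) ℝ).toBasis
  set A := LinearMap.toMatrix b b (M : EuclideanSpace ℝ (Fin d) →ₗ[ℝ] EuclideanSpace ℝ (Fin d))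
  set p : ℝ[X] := Matrix.det ((X : ℝ[X]) • A.map C + (1 : Matrix (Fin d) (Fin d) ℝ).map C) with hp
  have he : ∀ t : ℝ, p.eval t = (1 + t • M).det := fun t => by
    rw [ContinuousLinearMap.det, ← LinearMap.det_toMatrix b, hp, ← coe_evalRingHom,
      RingHom.map_det]
    congr 1
    have e : LinearMap.toMatrix b b ((1 + t • M : EuclideanSpace ℝ (Fin d) →L[ℝ] _) :
        EuclideanSpace ℝ (Fin d) →ₗ[ℝ] EuclideanSpace ℝ (Fin d)) = 1 + t • A := by
      rw [ContinuousLinearMap.toLinearMap_add, ContinuousLinearMap.toLinearMap_smul, map_add,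
        map_smul, ContinuousLinearMap.toLinearMap_one, LinearMap.toMatrix_one]
    rw [e]
    ext i j
    simp only [RingHom.mapMatrix_apply, Matrix.map_apply, Matrix.add_apply, Matrix.smul_apply,
      smul_eq_mul, coe_evalRingHom, eval_add, eval_mul, eval_X, eval_C]
    ring
  have hd : p.degree < (Finset.range (d + 1)).card := by
    have := natDegree_det_X_add_C_le A 1
    rw [Fintype.card_fin] at this
    rw [Finset.card_range]
    exact (degree_le_of_natDegree_le this).trans_lt (by exact_mod_cast Nat.lt_succ_self d)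
  have h1 := congrArg (eval t) (Lagrange.eq_interpolate hv hd)
  rw [he, Lagrange.interpolate_apply, eval_finsetSum] at h1
  rw [h1]
  exact Finset.sum_congr rfl fun k _ => by rw [eval_mul, eval_C, he, mul_comm]

theorem poly_int {d : ℕ}
    {A : EuclideanSpace ℝ (Fin d) → EuclideanSpace ℝ (Fin d) →L[ℝ] EuclideanSpace ℝ (Fin d)}
    (hA : Continuous A) : ∃ P : ℝ[X], ∀ t : ℝ,
      P.eval t = ∫ x in ball (0 : EuclideanSpace ℝ (Fin d)) 1, (1 + t • A x).det := by
  have hint : ∀ t : ℝ, IntegrableOn (fun x => (1 + t • A x).det)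
      (ball (0 : EuclideanSpace ℝ (Fin d)) 1) := fun t =>
    ((ContinuousLinearMap.continuous_det.comp (continuous_const.add
      (hA.const_smul t))).continuousOn.integrableOn_compact (isCompact_closedBall 0 1)).mono_set
      ball_subset_closedBall
  have hv : InjOn (fun k : ℕ => (k : ℝ)) (Finset.range (d + 1)) := fun i _ j _ h =>
    Nat.cast_injective (R := ℝ) h
  refine ⟨∑ k ∈ Finset.range (d + 1), Lagrange.basis (Finset.range (d + 1)) (fun k : ℕ => (k : ℝ)) k *
    C (∫ x in ball (0 : EuclideanSpace ℝ (Fin d)) 1, (1 + (k : ℝ) • A x).det), fun t => ?_⟩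
  rw [show (fun x => (1 + t • A x).det) = _ from funext fun x => hairp_weights d _ hv t (A x),
    integral_finsetSum _ fun k _ => (hint _).const_mul _, eval_finsetSum]
  exact Finset.sum_congr rfl fun k _ => by rw [eval_mul, eval_C, integral_const_mul]

theorem odd_contra {P : ℝ[X]} {k : ℕ} {c t0 : ℝ} (hc : 0 < c) (ht : 0 < t0)
    (h : ∀ t ∈ Icc (0 : ℝ) t0, P.eval t = √(1 + t ^ 2) ^ (2 * k + 1) * c) : False := by
  have hsq : P ^ 2 = C (c ^ 2) * (1 + X ^ 2) ^ (2 * k + 1) := by
    refine eq_of_infinite_eval_eq _ _ ((Icc_infinite ht).mono fun t ht => ?_)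
    simp only [mem_ofPred_eq, eval_pow, eval_mul, eval_C, eval_add, eval_one, eval_X, h t ht]
    rw [mul_pow, ← pow_mul, mul_comm (2 * k + 1) 2, pow_mul, Real.sq_sqrt (by positivity)]
    ring
  have e := congrArg (Polynomial.map (algebraMap ℝ ℂ)) hsq
  simp only [Polynomial.map_pow, Polynomial.map_mul, map_C, Polynomial.map_add, Polynomial.map_one,
    map_X] at e
  have f : (1 + X ^ 2 : ℂ[X]) = (X + C Complex.I) * (X - C Complex.I) := by
    have a : (C Complex.I : ℂ[X]) ^ 2 = -1 := by rw [← C_pow, Complex.I_sq, C_neg, C_1]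
    linear_combination a
  rw [f, mul_pow, ← mul_assoc, sq] at e
  have hR : ¬ (C (algebraMap ℝ ℂ (c ^ 2)) * (X + C Complex.I) ^ (2 * k + 1)).IsRoot Complex.I := by
    rw [IsRoot.def, eval_mul, eval_C, eval_pow, eval_add, eval_X, eval_C, ← two_mul]
    exact mul_ne_zero ((_root_.map_ne_zero _).2 (pow_ne_zero _ hc.ne'))
      (pow_ne_zero _ (mul_ne_zero two_ne_zero Complex.I_ne_zero))
  have hR0 : C (algebraMap ℝ ℂ (c ^ 2)) * (X + C Complex.I) ^ (2 * k + 1) ≠ 0 := fun h0 =>
    hR (by rw [h0]; exact IsRoot.def.2 eval_zero)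
  have e2 := congrArg (rootMultiplicity Complex.I) e
  rw [rootMultiplicity_mul_X_sub_C_pow hR0, rootMultiplicity_eq_zero hR,
    rootMultiplicity_mul (by
      rw [e]
      exact mul_ne_zero hR0 (pow_ne_zero _ (X_sub_C_ne_zero _)))] at e2
  omega

end Vale.Agent.P216
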