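import Vale.Agent.P216C.HairA
import Vale.Agent.P216C.HairP

/-! P216C HairB (TASK, helper names start with hairb_).  The hairy ball theorem.
Extend `φ` to a continuous `G` on the whole space (`ContinuousMap.exists_restrict_eq`, Tietze).  `ε x = ‖G x - ⟪G x, x⟫ • x‖ + |1 - ‖x‖ ^ 2|` is
continuous and positive (on the sphere `G x = ⟪G x, x⟫ • x` would give `G x = ± x`).  Take a smooth `g` with `dist (g x) (G x) < ε x`
(`Continuous.exists_contDiff_approx`, see its use in P371 Brouwer).  `p x = ‖x‖ ^ 2 • g x - ⟪g x, x⟫ • x` is smooth, orthogonal to `x`, and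
not zero on the sphere (`‖a - ⟪a, x⟫ • x‖ ≤ ‖a‖` for `a = G x - g x`, `‖x‖ = 1`).  Apply `hairy_smooth` to
`h x = (√(‖p x‖ ^ 2 + (1 - ‖x‖ ^ 2) ^ 2))⁻¹ • p x` (`ContDiff.norm_sq`, `ContDiff.sqrt`, `ContDiff.inner`). -/

open MeasureTheory Metric Set
open scoped RealInnerProductSpace

namespace Vale.Agent.P216

theorem hairy_smooth {k : ℕ}
    {h : EuclideanSpace ℝ (Fin (2 * k + 1)) → EuclideanSpace ℝ (Fin (2 * k + 1))}
    (hh : ContDiff ℝ 1 h) (h0 : ∀ x, ⟪h x, x⟫ = 0) (h1 : ∀ x, ‖h x‖ ≤ 1)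
    (h2 : ∀ x, ‖x‖ = 1 → ‖h x‖ = 1) : False := by
  obtain ⟨t0, ht, H⟩ := vol_key hh h0 h1 h2
  obtain ⟨P, hP⟩ := poly_int (hh.continuous_fderiv (by simp))
  exact odd_contra (P := P) (k := k)
    (ENNReal.toReal_pos (measure_ball_pos volume _ one_pos).ne' measure_ball_lt_top.ne) ht
    fun t h => (hP t).trans (H t h)

theorem hairb_proj {E : Type} [NormedAddCommGroup E] [InnerProductSpace ℝ E] (a : E) {x : E}
    (hx : ‖x‖ = 1) : ‖a - ⟪a, x⟫ • x‖ ≤ ‖a‖ := by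
  refine (sq_le_sq₀ (norm_nonneg _) (norm_nonneg _)).1 ?_
  rw [norm_sub_sq_real, real_inner_smul_right, norm_smul, hx, mul_one, Real.norm_eq_abs, sq_abs]
  nlinarith [sq_nonneg ⟪a, x⟫]

theorem hairb_ext {E : Type} [NormedAddCommGroup E] [NormedSpace ℝ E] [FiniteDimensional ℝ E]
    (f : C(sphere (0 : E) 1, E)) : ∃ G : C(E, E), ∀ x : sphere (0 : E) 1, G x = f x := by
  have : TietzeExtension.{0, 0} E := TietzeExtension.of_tvs ℝ
  obtain ⟨G, hG⟩ := ContinuousMap.exists_restrict_eq isClosed_sphere f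
  exact ⟨G, fun x => DFunLike.congr_fun hG x⟩

theorem hairb_ne {r : ℝ} (h0 : 0 ≤ r) (h : r ≠ 1) : 1 - r ^ 2 ≠ 0 := fun h1 =>
  h ((pow_eq_one_iff_of_nonneg h0 two_ne_zero).1 (sub_eq_zero.1 h1).symm)

theorem hairb_main {k : ℕ}
    {G : EuclideanSpace ℝ (Fin (2 * k + 1)) → EuclideanSpace ℝ (Fin (2 * k + 1))}
    (hG : Continuous G) (h1 : ∀ x, ‖x‖ = 1 → G x - ⟪G x, x⟫ • x ≠ 0) : False := by
  obtain ⟨g, hg', ha, -⟩ := hG.exists_contDiff_approx 1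
    (ε := fun x => ‖G x - ⟪G x, x⟫ • x‖ + |1 - ‖x‖ ^ 2|) (by fun_prop) fun x => by
      by_cases hx : ‖x‖ = 1
      · exact add_pos_of_pos_of_nonneg (norm_pos_iff.2 (h1 x hx)) (abs_nonneg _)
      · exact add_pos_of_nonneg_of_pos (norm_nonneg _) (abs_pos.2 (hairb_ne (norm_nonneg _) hx))
  have hg : ContDiff ℝ 1 g := hg'
  obtain ⟨p, hp⟩ : ∃ p : EuclideanSpace ℝ (Fin (2 * k + 1)) → EuclideanSpace ℝ (Fin (2 * k + 1)),
      p = fun x => ‖x‖ ^ 2 • g x - ⟪g x, x⟫ • x := ⟨_, rfl⟩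
  have p1 : ContDiff ℝ 1 p := by
    rw [hp]
    exact ((contDiff_norm_sq ℝ).smul hg).sub ((hg.inner ℝ contDiff_id).smul contDiff_id)
  have p0 : ∀ x, p x = ‖x‖ ^ 2 • g x - ⟪g x, x⟫ • x := fun x => by rw [hp]
  have p2 : ∀ x, ⟪p x, x⟫ = 0 := fun x => by
    rw [p0, inner_sub_left, real_inner_smul_left, real_inner_smul_left, real_inner_self_eq_norm_sq]
    ring
  have p3 : ∀ x, ‖x‖ = 1 → p x ≠ 0 := fun x hx h => by
    have h2 : dist (g x) (G x) < ‖G x - ⟪G x, x⟫ • x‖ + |1 - ‖x‖ ^ 2| := ha x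
    have h3 := hairb_proj (G x - g x) hx
    rw [p0, hx, one_pow, one_smul] at h
    have h4 : G x - g x - ⟪G x - g x, x⟫ • x = G x - ⟪G x, x⟫ • x := by
      rw [inner_sub_left, sub_smul, ← sub_eq_zero.1 h]
      abel
    rw [h4] at h3
    rw [dist_comm, dist_eq_norm, hx, one_pow, sub_self, abs_zero, add_zero] at h2
    exact h2.not_ge h3
  have p4 : ∀ x, 0 < ‖p x‖ ^ 2 + (1 - ‖x‖ ^ 2) ^ 2 := fun x => by
    by_cases hx : ‖x‖ = 1
    · exact add_pos_of_pos_of_nonneg (pow_pos (norm_pos_iff.2 (p3 x hx)) 2) (sq_nonneg _)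
    · exact add_pos_of_nonneg_of_pos (sq_nonneg _)
        (sq_pos_of_ne_zero (hairb_ne (norm_nonneg _) hx))
  refine hairy_smooth (h := fun x => (√(‖p x‖ ^ 2 + (1 - ‖x‖ ^ 2) ^ 2))⁻¹ • p x) ?_ (fun x => ?_)
    (fun x => ?_) fun x hx => ?_
  · exact ((((p1.norm_sq ℝ).add ((contDiff_const.sub (contDiff_norm_sq ℝ)).pow 2)).sqrt
      fun x => (p4 x).ne').inv fun x => (Real.sqrt_pos.2 (p4 x)).ne').smul p1
  · rw [real_inner_smul_left, p2, mul_zero]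
  · rw [norm_smul, norm_inv, Real.norm_of_nonneg (Real.sqrt_nonneg _),
      inv_mul_le_iff₀ (Real.sqrt_pos.2 (p4 x)), mul_one]
    exact Real.le_sqrt_of_sq_le (le_add_of_nonneg_right (sq_nonneg _))
  · rw [hx, one_pow, sub_self, zero_pow two_ne_zero, add_zero, Real.sqrt_sq (norm_nonneg _),
      norm_smul, norm_inv, norm_norm, inv_mul_cancel₀ (norm_ne_zero_iff.2 (p3 x hx))]

theorem hairy {k : ℕ} {φ : sphere (0 : EuclideanSpace ℝ (Fin (2 * k + 1))) 1 →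
    sphere (0 : EuclideanSpace ℝ (Fin (2 * k + 1))) 1} (hφ : Continuous φ) :
    ∃ x, φ x = x ∨ φ x = -x := by
  by_contra hn
  obtain ⟨G, hG⟩ := hairb_ext
    ⟨fun x => (φ x : EuclideanSpace ℝ (Fin (2 * k + 1))), continuous_subtype_val.comp hφ⟩
  refine hairb_main G.continuous fun x hx h => hn ?_
  have hy : x ∈ sphere (0 : EuclideanSpace ℝ (Fin (2 * k + 1))) 1 := mem_sphere_zero_iff_norm.2 hx
  have h2 : (φ ⟨x, hy⟩ : EuclideanSpace ℝ (Fin (2 * k + 1))) = ⟪G x, x⟫ • x :=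
    (hG ⟨x, hy⟩).symm.trans (sub_eq_zero.1 h)
  have h3 := norm_eq_of_mem_sphere (φ ⟨x, hy⟩)
  rw [h2, norm_smul, hx, mul_one, Real.norm_eq_abs] at h3
  rcases (abs_eq zero_le_one).1 h3 with h4 | h4
  · exact ⟨⟨x, hy⟩, Or.inl (Subtype.ext (by rw [h2, h4, one_smul]))⟩
  · exact ⟨⟨x, hy⟩, Or.inr (Subtype.ext (by rw [h2, h4, neg_one_smul]; rfl))⟩

end Vale.Agent.P216
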